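import Vale.Agent.P097.H536.T9b
import Vale.Agent.P097.H877.T1
import Vale.Agent.P097.H799.TrigV
import Vale.Agent.P097.H438.Final

/-! # P097 / TRIG-T9: a table with trigonometric polynomial support function which is integrable
near the boundary is a disc -/

set_option linter.all false

open Real

namespace Vale.Agent.P097.H536

/-- the radius of curvature is constant -/
theorem const_of_leaves {h : ℝ → ℝ} {η : ℝ} (h0 : 0 < η) (Hs : SmoothTable h) (hT : TrigPoly h)
    (hL : Collar h η ∨ H407.Leaves h η) : ∃ c, ∀ x, h x + deriv (deriv h) x = c := by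
  rcases hL with hL | hL
  · exact t9_of H877.t1 TT4.t4 h0 Hs hT (Or.inl hL)
  · refine t9_of H877.t1 TT4.t4 (mul_pos h0 pi_pos) Hs hT (Or.inr ?_)
    rwa [mul_div_assoc, div_self pi_pos.ne', mul_one]

/-- **Theorem TRIG.** -/
theorem disc_of_leaves {h : ℝ → ℝ} {η : ℝ} (h0 : 0 < η) (Hs : SmoothTable h) (hT : TrigPoly h)
    (hL : Collar h η ∨ H407.Leaves h η) :
    ∃ r a b : ℝ, 0 < r ∧ ∀ x, h x = r + a * Real.cos x + b * Real.sin x := by
  obtain ⟨c, hc⟩ := const_of_leaves h0 Hs hT hL
  have d1 : Differentiable ℝ h := Hs.1.differentiable (by simp)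
  have d2 : Differentiable ℝ (deriv h) := by
    have := (contDiff_infty_iff_deriv.1 Hs.1).2
    exact this.differentiable (by simp)
  obtain ⟨a, b, hab⟩ := circle_of_const d1 d2 hc
  exact ⟨c, a, b, by rw [← hc 0]; exact Hs.2.2 0, hab⟩

theorem t9 : T9 := by
  intro h η h0 Hs hT hL
  obtain ⟨r, a, b, -, hr⟩ := disc_of_leaves h0 Hs hT (Or.inl hL)
  exact ⟨r, a, b, hr⟩

/-- the support function of a plane set -/
noncomputable def supp (Ω : Set ℂ) (ψ : ℝ) : ℝ :=
  sSup ((fun z : ℂ => (Complex.exp (-(ψ * Complex.I)) * z).re) '' Ω)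

open H438 in
theorem supp_eq (B : H438.Table) (ψ : ℝ) : supp B.Ω ψ = B.hs ψ := by
  have hlub : IsLUB ((fun z : ℂ => (Complex.exp (-(ψ * Complex.I)) * z).re) '' B.Ω) (B.hs ψ) := by
    constructor
    · rintro _ ⟨z, hz, rfl⟩
      exact ((B.mem_Ω_iff z).1 hz ψ).le
    · intro u hu
      have h1 : closure B.Ω ⊆ {z | (Complex.exp (-(ψ * Complex.I)) * z).re ≤ u} :=
        closure_minimal (fun z hz => hu ⟨z, hz, rfl⟩)
          (isClosed_le (by fun_prop) continuous_const)
      exact h1 (B.γ_mem_closure (B.pos ψ))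
  obtain ⟨z, hz⟩ := B.nonempty
  exact hlub.csSup_eq ⟨_, z, hz, rfl⟩

/-- a table with the support function of a circle is a disc -/
theorem ball_of_circle (B : H438.Table) {r a b : ℝ} (hr : 0 < r)
    (h : ∀ x, B.hs x = r + a * Real.cos x + b * Real.sin x) :
    B.Ω = Metric.ball ((a : ℂ) + b * Complex.I) r := by
  ext z
  rw [B.mem_Ω_iff, mem_ball_iff_norm]
  set u : ℂ := z - (a + b * Complex.I) with hu
  have key : ∀ ψ : ℝ, (Complex.exp (-(ψ * Complex.I)) * z).re =
      (Complex.exp (-(ψ * Complex.I)) * u).re + a * Real.cos ψ + b * Real.sin ψ := by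
    intro ψ
    have e2 : Complex.exp (-(ψ * Complex.I)) = Complex.exp (((-ψ : ℝ) : ℂ) * Complex.I) := by
      congr 1
      push_cast
      ring
    have e3 : z = u + (a + b * Complex.I) := by rw [hu]; ring
    rw [e2, e3]
    simp only [Complex.mul_re, Complex.mul_im, Complex.add_re, Complex.add_im, Complex.ofReal_re,
      Complex.ofReal_im, Complex.I_re, Complex.I_im, Complex.exp_ofReal_mul_I_re,
      Complex.exp_ofReal_mul_I_im, cos_neg, sin_neg]
    ring
  constructor
  · intro hz
    have h1 := hz (Complex.arg u)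
    rw [key, h] at h1
    have h2 : (Complex.exp (-(Complex.arg u * Complex.I)) * u).re = ‖u‖ := by
      conv_lhs => rw [← Complex.norm_mul_exp_arg_mul_I u]
      rw [show Complex.exp (-(((‖u‖ : ℂ) * Complex.exp (u.arg * Complex.I)).arg * Complex.I)) =
        Complex.exp (-(u.arg * Complex.I)) by rw [Complex.norm_mul_exp_arg_mul_I u]]
      rw [mul_left_comm, ← Complex.exp_add, neg_add_cancel, Complex.exp_zero, mul_one,
        Complex.ofReal_re]
    linarith
  · intro hz ψ
    rw [key, h]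
    have h1 : (Complex.exp (-(ψ * Complex.I)) * u).re ≤ ‖Complex.exp (-(ψ * Complex.I)) * u‖ :=
      Complex.re_le_norm _
    have h2 : ‖Complex.exp (-(ψ * Complex.I))‖ = 1 := by
      rw [show -(ψ * Complex.I) = ((-ψ : ℝ) : ℂ) * Complex.I by push_cast; ring]
      exact Complex.norm_exp_ofReal_mul_I _
    rw [norm_mul, h2, one_mul] at h1
    linarith

/-- **Theorem TRIG**, literal form. -/
theorem ball_of_integrable (B : H438.Table) (hB : B.IntegrableNearBoundary)
    (hT : TrigPoly (supp B.Ω)) : ∃ (c : ℂ) (r : ℝ), 0 < r ∧ B.Ω = Metric.ball c r := by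
  obtain ⟨η, hη, hc⟩ := B.collar_of_integrable hB
  have e : supp B.Ω = B.hs := funext (supp_eq B)
  rw [e] at hT
  obtain ⟨r, a, b, hr, h⟩ := disc_of_leaves hη B.hs_table hT (Or.inl hc)
  exact ⟨_, r, hr, ball_of_circle B hr h⟩

end Vale.Agent.P097.H536
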