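import Vale.Agent.P097.H536.T8.Fin
import Vale.Agent.P097.H402.StepP

/-! # P097 / TRIG-T9, part 1: tools for the assembly -/

set_option linter.all false

open Complex Metric Filter Topology Set
open scoped ComplexConjugate

namespace Vale.Agent.P097.H536

open Vale.Agent.P097.TA Vale.Agent.P097.H202

theorem isOpen_Cone (Y c : ℝ) : IsOpen (Cone Y c) := by
  refine isOpen_lt (by fun_prop) ?_
  exact continuous_const.mul (continuous_const.sub (continuous_abs.comp
    (continuous_im.comp continuous_fst)))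

theorem convex_Cone {Y c : ℝ} (hc : 0 ≤ c) : Convex ℝ (Cone Y c) := by
  intro p hp q hq a b ha hb hab
  have hp' : ‖p.2‖ < c * (Y - |p.1.im|) := hp
  have hq' : ‖q.2‖ < c * (Y - |q.1.im|) := hq
  show ‖(a • p + b • q).2‖ < c * (Y - |(a • p + b • q).1.im|)
  have h1 : ‖(a • p + b • q).2‖ ≤ a * ‖p.2‖ + b * ‖q.2‖ := by
    calc ‖(a • p + b • q).2‖ = ‖a • p.2 + b • q.2‖ := rfl
      _ ≤ ‖a • p.2‖ + ‖b • q.2‖ := norm_add_le _ _
      _ = a * ‖p.2‖ + b * ‖q.2‖ := by
        rw [norm_smul, norm_smul, Real.norm_of_nonneg ha, Real.norm_of_nonneg hb]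
  have h2 : |(a • p + b • q).1.im| ≤ a * |p.1.im| + b * |q.1.im| := by
    have e : (a • p + b • q).1.im = a * p.1.im + b * q.1.im := by simp
    rw [e]
    calc |a * p.1.im + b * q.1.im| ≤ |a * p.1.im| + |b * q.1.im| := abs_add_le _ _
      _ = a * |p.1.im| + b * |q.1.im| := by
        rw [abs_mul, abs_mul, abs_of_nonneg ha, abs_of_nonneg hb]
  have h3 : a * ‖p.2‖ + b * ‖q.2‖ < a * (c * (Y - |p.1.im|)) + b * (c * (Y - |q.1.im|)) := by
    rcases ha.lt_or_eq with h | h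
    · have a1 := mul_lt_mul_of_pos_left hp' h
      have a2 := mul_le_mul_of_nonneg_left hq'.le hb
      linarith
    · have hb1 : b = 1 := by linarith
      rw [← h, hb1]
      linarith
  have h4 : a * (c * (Y - |p.1.im|)) + b * (c * (Y - |q.1.im|)) =
      c * (Y - (a * |p.1.im| + b * |q.1.im|)) := by
    linear_combination (c * Y) * hab
  rw [h4] at h3
  have h5 : c * (Y - (a * |p.1.im| + b * |q.1.im|)) ≤ c * (Y - |(a • p + b • q).1.im|) := by
    gcongr
  linarith

theorem F2_congr {b B : ℂ → ℂ → ℂ} {ε : ℝ}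
    (hB : ∀ m d : ℂ, |m.im| < ε → ‖d‖ < ε → B m d = b m d) {x y : ℂ}
    (h1 : |((x + y) / 2).im| < ε) (h2 : ‖y - x‖ < ε) : F2 B x y = F2 b x y := by
  unfold F2
  apply Filter.EventuallyEq.deriv_eq
  have o1 : IsOpen {t : ℂ | |((x + t) / 2).im| < ε} := isOpen_lt (by fun_prop) continuous_const
  have o2 : IsOpen {t : ℂ | ‖t - x‖ < ε} := isOpen_lt (by fun_prop) continuous_const
  filter_upwards [o1.mem_nhds h1, o2.mem_nhds h2] with t t1 t2
  rw [Fg, Fg, hB _ _ t1 t2]

theorem F1_congr {b B : ℂ → ℂ → ℂ} {ε : ℝ}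
    (hB : ∀ m d : ℂ, |m.im| < ε → ‖d‖ < ε → B m d = b m d) {y z : ℂ}
    (h1 : |((y + z) / 2).im| < ε) (h2 : ‖z - y‖ < ε) : F1 B y z = F1 b y z := by
  unfold F1
  apply Filter.EventuallyEq.deriv_eq
  have o1 : IsOpen {t : ℂ | |((t + z) / 2).im| < ε} := isOpen_lt (by fun_prop) continuous_const
  have o2 : IsOpen {t : ℂ | ‖z - t‖ < ε} := isOpen_lt (by fun_prop) continuous_const
  filter_upwards [o1.mem_nhds h1, o2.mem_nhds h2] with t t1 t2
  rw [Fg, Fg, hB _ _ t1 t2]

theorem EL_congr {b B : ℂ → ℂ → ℂ} {ε : ℝ}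
    (hB : ∀ m d : ℂ, |m.im| < ε → ‖d‖ < ε → B m d = b m d) {x y z : ℂ}
    (h1 : |((x + y) / 2).im| < ε) (h2 : ‖y - x‖ < ε)
    (h3 : |((y + z) / 2).im| < ε) (h4 : ‖z - y‖ < ε) : EL B x y z = EL b x y z := by
  rw [EL, EL, F2_congr hB h1 h2, F1_congr hB h3 h4]

/-- the points of a leaf with small phase and rotation number -/
theorem leaf_small {b : ℂ → ℂ → ℂ} {L r e : ℝ} {θ : ℂ → ℂ → ℂ} (F : Fam b L r e θ) {ε : ℝ}
    (hε : 0 < ε) : ∃ r₁ e₁ : ℝ, 0 < r₁ ∧ 0 < e₁ ∧ r₁ ≤ r ∧ e₁ ≤ e ∧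
      ∀ x w : ℂ, (x, w) ∈ WW 1 r₁ e₁ →
        |((θ (x - w) w + θ x w) / 2).im| < ε ∧ ‖θ x w - θ (x - w) w‖ < ε ∧
        |((θ x w + θ (x + w) w) / 2).im| < ε ∧ ‖θ (x + w) w - θ x w‖ < ε ∧
        |(θ (x - w) w).im| < ε ∧ |(θ x w).im| < ε ∧ |(θ (x + w) w).im| < ε := by
  have hr := F.hr
  have he := F.he
  set K : ℝ := |L| + 1 with hK
  have hK0 : 0 < K := by positivity
  set r₁ : ℝ := min r (ε / 4) with hr₁
  set e₁ : ℝ := min e (min 1 (ε / (4 * (1 + 2 * K)))) with he₁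
  have hr₁0 : 0 < r₁ := lt_min hr (by positivity)
  have he₁0 : 0 < e₁ := lt_min he (lt_min one_pos (by positivity))
  refine ⟨r₁, e₁, hr₁0, he₁0, min_le_left _ _, min_le_left _ _, ?_⟩
  rintro x w ⟨h1, h2⟩
  simp only [one_mul] at h1 h2
  have hw1 : ‖w‖ < 1 := h1.trans_le ((min_le_right _ _).trans (min_le_left _ _))
  have hw2 : ‖w‖ < ε / (4 * (1 + 2 * K)) :=
    h1.trans_le ((min_le_right _ _).trans (min_le_right _ _))
  have hw3 : (1 + 2 * K) * ‖w‖ < ε / 4 := by
    rw [lt_div_iff₀ (by positivity)] at hw2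
    linarith
  have hre : r₁ ≤ ε / 4 := min_le_right _ _
  have him : |w.im| ≤ ‖w‖ := abs_im_le_norm w
  -- each of the three points
  have key : ∀ p : ℂ, |p.im| < r₁ → ‖θ p w - p‖ ≤ K * ‖w‖ := by
    intro p hp
    have hmem : (p, w) ∈ WW 0 r e := by
      constructor
      · exact h1.trans_le (min_le_left _ _)
      · simp only [zero_mul, add_zero]
        exact hp.trans_le (min_le_left _ _)
    refine (F.cl p w hmem).trans ?_
    have : L ≤ K := by
      rw [hK]
      linarith [le_abs_self L]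
    calc L * ‖w‖ ^ 2 ≤ K * ‖w‖ ^ 2 := by gcongr
      _ = K * ‖w‖ * ‖w‖ := by ring
      _ ≤ K * ‖w‖ * 1 := by gcongr
      _ = K * ‖w‖ := by ring
  have p0 : |x.im| < r₁ := by linarith [abs_nonneg w.im]
  have pm : |(x - w).im| < r₁ := by
    rw [sub_im]
    have := abs_sub x.im w.im
    linarith
  have pp : |(x + w).im| < r₁ := by
    rw [add_im]
    have := abs_add_le x.im w.im
    linarith
  have k0 := key x p0
  have km := key (x - w) pm
  have kp := key (x + w) pp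
  have kw : K * ‖w‖ < ε / 8 + ε / 8 := by nlinarith [norm_nonneg w]
  have im0 : |(θ x w).im| < ε / 2 := by
    have h3 : (θ x w).im = x.im + (θ x w - x).im := by rw [sub_im]; ring
    rw [h3]
    have h4 := abs_add_le x.im (θ x w - x).im
    have h5 := abs_im_le_norm (θ x w - x)
    linarith
  have imm : |(θ (x - w) w).im| < ε / 2 := by
    have h3 : (θ (x - w) w).im = (x - w).im + (θ (x - w) w - (x - w)).im := by rw [sub_im _ (x - w)]; ring
    rw [h3]
    have h4 := abs_add_le (x - w).im (θ (x - w) w - (x - w)).im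
    have h5 := abs_im_le_norm (θ (x - w) w - (x - w))
    linarith
  have imp : |(θ (x + w) w).im| < ε / 2 := by
    have h3 : (θ (x + w) w).im = (x + w).im + (θ (x + w) w - (x + w)).im := by rw [sub_im _ (x + w)]; ring
    rw [h3]
    have h4 := abs_add_le (x + w).im (θ (x + w) w - (x + w)).im
    have h5 := abs_im_le_norm (θ (x + w) w - (x + w))
    linarith
  have hmid : ∀ p q : ℂ, |p.im| < ε / 2 → |q.im| < ε / 2 → |((p + q) / 2).im| < ε := by
    intro p q hp hq
    rw [div_ofNat_im, add_im, abs_div]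
    have := abs_add_le p.im q.im
    rw [abs_of_pos (by norm_num : (0 : ℝ) < 2), div_lt_iff₀ (by norm_num)]
    linarith
  refine ⟨hmid _ _ imm im0, ?_, hmid _ _ im0 imp, ?_, by linarith, by linarith, by linarith⟩
  · have e1 : θ x w - θ (x - w) w = (θ x w - x) - (θ (x - w) w - (x - w)) + w := by ring
    rw [e1]
    have a1 := norm_add_le ((θ x w - x) - (θ (x - w) w - (x - w))) w
    have a2 := norm_sub_le (θ x w - x) (θ (x - w) w - (x - w))
    nlinarith [norm_nonneg w]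
  · have e1 : θ (x + w) w - θ x w = (θ (x + w) w - (x + w)) - (θ x w - x) + w := by ring
    rw [e1]
    have a1 := norm_add_le ((θ (x + w) w - (x + w)) - (θ x w - x)) w
    have a2 := norm_sub_le (θ (x + w) w - (x + w)) (θ x w - x)
    nlinarith [norm_nonneg w]

theorem WW_sub {a r e r' e' : ℝ} (hr : r' ≤ r) (he : e' ≤ e) : WW a r' e' ⊆ WW a r e := by
  rintro p ⟨h1, h2⟩
  exact ⟨h1.trans_le he, h2.trans_le hr⟩

/-- the family of leaves for a generating function which agrees near the diagonal -/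
theorem Fam_congr {b B : ℂ → ℂ → ℂ} {L r e : ℝ} {θ : ℂ → ℂ → ℂ} (F : Fam b L r e θ) {ε : ℝ}
    (hε : 0 < ε) (hB : ∀ m d : ℂ, |m.im| < ε → ‖d‖ < ε → B m d = b m d) :
    ∃ r₁ e₁ : ℝ, r₁ ≤ r ∧ e₁ ≤ e ∧ Fam B L r₁ e₁ θ := by
  obtain ⟨r₁, e₁, hr₁, he₁, hrr, hee, hs⟩ := leaf_small F hε
  refine ⟨r₁, e₁, hrr, hee, hr₁, he₁, ?_, ?_, ?_, ?_, ?_, ?_⟩
  · exact DifferentiableOn.mono F.hol (WW_sub hrr hee)
  · exact fun x w h => F.per x w (WW_sub hrr hee h)
  · exact fun x w h => F.ev x w (WW_sub hrr hee h)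
  · exact fun x w h => F.re x w (WW_sub hrr hee h)
  · exact fun x w h => F.cl x w (WW_sub hrr hee h)
  · intro x w h
    obtain ⟨a1, a2, a3, a4, -⟩ := hs x w h
    rw [Er, EL_congr hB a1 a2 a3 a4]
    exact F.er x w (WW_sub hrr hee h)

/-- solutions of `h + h'' = c` -/
theorem circle_of_const {h : ℝ → ℝ} {c : ℝ} (h1 : Differentiable ℝ h)
    (h2 : Differentiable ℝ (deriv h)) (hc : ∀ x, h x + deriv (deriv h) x = c) :
    ∃ a b : ℝ, ∀ x, h x = c + a * Real.cos x + b * Real.sin x := by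
  set a := h 0 - c with ha
  set b := deriv h 0 with hb
  set u : ℝ → ℝ := fun x => h x - c - a * Real.cos x - b * Real.sin x with hu
  set v : ℝ → ℝ := fun x => deriv h x + a * Real.sin x - b * Real.cos x with hv
  have du : ∀ x, HasDerivAt u (v x) x := by
    intro x
    have := (((h1 x).hasDerivAt.sub_const c).sub ((Real.hasDerivAt_cos x).const_mul a)).sub
      ((Real.hasDerivAt_sin x).const_mul b)
    refine this.congr_deriv ?_
    simp only [hv]
    ring
  have dv : ∀ x, HasDerivAt v (-u x) x := by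
    intro x
    have := (((h2 x).hasDerivAt).add ((Real.hasDerivAt_sin x).const_mul a)).sub
      ((Real.hasDerivAt_cos x).const_mul b)
    refine this.congr_deriv ?_
    simp only [hu]
    have := hc x
    linarith
  have dE : ∀ x, HasDerivAt (fun x => u x ^ 2 + v x ^ 2) 0 x := by
    intro x
    have := ((du x).pow 2).add ((dv x).pow 2)
    refine this.congr_deriv ?_
    push_cast
    ring
  have hE : ∀ x, u x ^ 2 + v x ^ 2 = u 0 ^ 2 + v 0 ^ 2 := by
    intro x
    exact is_const_of_deriv_eq_zero (fun x => (dE x).differentiableAt) (fun x => (dE x).deriv) x 0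
  have u0 : u 0 = 0 := by simp [hu, ha]
  have v0 : v 0 = 0 := by simp [hv, hb]
  refine ⟨a, b, fun x => ?_⟩
  have h3 := hE x
  rw [u0, v0] at h3
  have h4 : u x = 0 := by nlinarith [sq_nonneg (u x), sq_nonneg (v x)]
  have h5 : h x - c - a * Real.cos x - b * Real.sin x = 0 := h4
  linarith

end Vale.Agent.P097.H536
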