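import Vale.Agent.P097.H536.T9a
import Vale.Agent.P097.H202.T2
import Vale.Agent.P097.H367.T5
import Vale.Agent.P097.H133.T6
import Vale.Agent.P097.H830.W4

/-! # P097 / TRIG-T9, part 2: assembly from `T1` and `T4` -/

set_option linter.all false

open Complex Metric Filter Topology Set
open scoped ComplexConjugate

namespace Vale.Agent.P097.H536

open Vale.Agent.P097.TA Vale.Agent.P097.H202

theorem Kc_differentiable {H : ℂ → ℂ} (hH : Differentiable ℂ H) :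
    Differentiable ℂ (fun p : ℂ × ℂ => Kc H p.1 p.2) := by
  have hd : Differentiable ℂ (deriv H) := by
    intro z
    exact (hH.analyticAt z).deriv.differentiableAt
  unfold Kc
  have h1 : Differentiable ℂ (fun p : ℂ × ℂ => H p.2) := hH.comp differentiable_snd
  have h2 : Differentiable ℂ (fun p : ℂ × ℂ => deriv H p.2) := hd.comp differentiable_snd
  have h3 : Differentiable ℂ (fun p : ℂ × ℂ => Complex.cos (p.2 - p.1)) := by fun_prop
  have h4 : Differentiable ℂ (fun p : ℂ × ℂ => Complex.sin (p.2 - p.1)) := by fun_prop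
  exact (h1.mul h3).sub (h2.mul h4)

/-- `T1, T4` imply the theorem -/
theorem t9_of (t1 : T1) (t4 : T4) {h : ℝ → ℝ} {η : ℝ} (h0 : 0 < η) (Hs : SmoothTable h)
    (hT : TrigPoly h) (hL : Collar h η ∨ H407.Leaves h (η / Real.pi)) :
    ∃ c : ℝ, ∀ x, h x + deriv (deriv h) x = c := by
  classical
  by_contra hne
  obtain ⟨κ, ρ, Λ, L, Hh, HH, lam, Φ, l, φ, ρ', M, L', r, e, b, θ, T, hρρ, hG, hb, F⟩ :=
    H402.main_cx_of H402.famEx Hs h0 hL
  obtain ⟨H, G, Φ', Y, C, n, β, ψ₀, dH, dG, hHh, hGH, hS, hΦ, hcusp⟩ :=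
    t1 h κ ρ Λ L Hh HH lam Φ l φ T hT hne
  obtain ⟨c, K, B, hc1, hGC, hFg, ε, hε, hBb⟩ :=
    t2 h κ ρ Λ L Hh HH lam Φ l φ ρ' M b H G Φ' Y C T hG hb dH dG hHh hGH hS hΦ
  obtain ⟨r₁, e₁, hr₁, he₁, FB⟩ := Fam_congr F hε hBb
  obtain ⟨c', C', ε', θ', hc', hC', hε', jθ', bθ', pθ', eθ'⟩ :=
    t4 Y c K L' r₁ e₁ (1 / 20) B θ hGC FB (by norm_num)
  have hY := hS.hY
  -- T5
  have jid : ∀ S : Set (ℂ × ℂ), JD (fun t w => t) S := fun S => differentiable_fst.differentiableOn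
  obtain ⟨c'', K'', f, hc'', hK'', jf, bf, ε'', hε'', ef⟩ :=
    H367.t5 Y r₁ e₁ (max L' 0) c' C' ε' (fun t w => θ t w - t) (fun t w => θ' t w - t)
      hY FB.hr FB.he (le_max_right _ _) hc' hC' hε'
      (DifferentiableOn.sub FB.hol (jid _))
      (fun t w h => by
        show θ (t + 1) w - (t + 1) = θ t w - t
        rw [FB.per t w h]
        ring)
      (fun t w h => (FB.cl t w h).trans (by gcongr; exact le_max_left _ _))
      (DifferentiableOn.sub jθ' (jid _))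
      (fun t w h => by
        show θ' (t + 1) w - (t + 1) = θ' t w - t
        rw [pθ' t w h]
        ring)
      bθ'
      (fun t w h h1 h2 => by
        show θ' t w - t = θ t w - t
        rw [eθ' t w h h1 h2])
  -- the family on the cone
  set Θ : ℂ → ℂ → ℂ := fun t w => t + f t w with hΘ
  set c₃ : ℝ := min (min (c'' / 2) (1 / 4)) (1 / (4 * (K'' + 1))) with hc₃
  have hc₃0 : 0 < c₃ := lt_min (lt_min (by positivity) (by norm_num)) (by positivity)
  have hc₃a : c₃ ≤ c'' / 2 := (min_le_left _ _).trans (min_le_left _ _)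
  have hc₃b : c₃ ≤ 1 / 4 := (min_le_left _ _).trans (min_le_right _ _)
  have hc₃c : c₃ ≤ 1 / (4 * (K'' + 1)) := min_le_right _ _
  have hKc₃ : 2 * K'' * c₃ ^ 2 ≤ 1 / 8 := by
    have h1 : K'' * c₃ ≤ 1 / 4 := by
      calc K'' * c₃ ≤ K'' * (1 / (4 * (K'' + 1))) := by gcongr
        _ ≤ 1 / 4 := by
          rw [mul_one_div, div_le_div_iff₀ (by positivity) (by norm_num)]
          nlinarith
    calc 2 * K'' * c₃ ^ 2 = 2 * (K'' * c₃) * c₃ := by ring
      _ ≤ 2 * (1 / 4) * (1 / 4) := by gcongr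
      _ = 1 / 8 := by norm_num
  have jΘ : JD Θ (Cone Y c'') := DifferentiableOn.add (jid _) jf
  -- geometry of the small cone
  have hd : ∀ t w : ℂ, (t, w) ∈ Cone Y c₃ → 0 < Y - |t.im| := by
    intro t w h
    have h1 : ‖w‖ < c₃ * (Y - |t.im|) := h
    have h2 := (norm_nonneg w).trans_lt h1
    exact pos_of_mul_pos_right h2 hc₃0.le
  have hgeo : ∀ t w : ℂ, (t, w) ∈ Cone Y c₃ → ∀ p : ℂ, ‖p - t‖ ≤ ‖w‖ →
      (p, w) ∈ Cone Y c'' ∧ Θ p w ∈ Str Y := by
    intro t w h p hp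
    have h1 : ‖w‖ < c₃ * (Y - |t.im|) := h
    have hd0 := hd t w h
    set d := Y - |t.im| with hdd
    have h2 : ‖w‖ < d / 4 := by
      calc ‖w‖ < c₃ * d := h1
        _ ≤ 1 / 4 * d := by gcongr
        _ = d / 4 := by ring
    have h3 : |p.im| ≤ |t.im| + ‖w‖ := by
      have e1 : p.im = t.im + (p - t).im := by rw [sub_im]; ring
      rw [e1]
      have a1 := abs_add_le t.im (p - t).im
      have a2 := (abs_im_le_norm (p - t)).trans hp
      linarith
    have h4 : d / 2 ≤ Y - |p.im| := by linarith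
    have h5 : (p, w) ∈ Cone Y c'' := by
      show ‖w‖ < c'' * (Y - |p.im|)
      calc ‖w‖ < c₃ * d := h1
        _ ≤ c'' / 2 * d := by gcongr
        _ = c'' * (d / 2) := by ring
        _ ≤ c'' * (Y - |p.im|) := by gcongr
    refine ⟨h5, ?_⟩
    have h6 := bf p w h5
    have h7 : ‖f p w‖ * (d / 2) ≤ K'' * (c₃ * d) ^ 2 := by
      calc ‖f p w‖ * (d / 2) ≤ ‖f p w‖ * (Y - |p.im|) := by gcongr
        _ ≤ K'' * ‖w‖ ^ 2 := h6
        _ ≤ K'' * (c₃ * d) ^ 2 := by gcongr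
    have h8 : ‖f p w‖ ≤ d / 8 := by
      have h9 : ‖f p w‖ * (d / 2) ≤ d / 8 * (d / 2) := by
        calc ‖f p w‖ * (d / 2) ≤ K'' * (c₃ * d) ^ 2 := h7
          _ = (2 * K'' * c₃ ^ 2) * (d ^ 2 / 2) := by ring
          _ ≤ 1 / 8 * (d ^ 2 / 2) := by gcongr
          _ = d / 8 * (d / 2) := by ring
      exact le_of_mul_le_mul_right h9 (by positivity)
    rw [mem_Str]
    have h10 : (Θ p w).im = p.im + (f p w).im := by
      simp only [hΘ]
      rw [add_im]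
    rw [h10]
    have a1 := abs_add_le p.im (f p w).im
    have a2 := abs_im_le_norm (f p w)
    linarith
  -- the equation
  have hp0 : ∀ t w : ℂ, ‖t - t‖ ≤ ‖w‖ := fun t w => by simp
  have hpm : ∀ t w : ℂ, ‖t - w - t‖ ≤ ‖w‖ := fun t w => by
    rw [show t - w - t = -w by ring, norm_neg]
  have hpp : ∀ t w : ℂ, ‖t + w - t‖ ≤ ‖w‖ := fun t w => by
    rw [show t + w - t = w by ring]
  set E : ℂ → ℂ → ℂ := fun t w =>
    Kc H (Φ' (Θ t w)) ((Φ' (Θ (t - w) w) + Φ' (Θ t w)) / 2)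
      - Kc H (Φ' (Θ t w)) ((Φ' (Θ t w) + Φ' (Θ (t + w) w)) / 2) with hE
  have jΦΘ : ∀ g : ℂ × ℂ → ℂ, Differentiable ℂ g → (∀ q : ℂ × ℂ, ‖g q - q.1‖ ≤ ‖q.2‖) →
      DifferentiableOn ℂ (fun q : ℂ × ℂ => Φ' (Θ (g q) q.2)) (Cone Y c₃) := by
    intro g hg hgq q hq
    obtain ⟨m1, m2⟩ := hgeo q.1 q.2 hq (g q) (hgq q)
    have a1 : DifferentiableAt ℂ (fun p : ℂ × ℂ => Θ p.1 p.2) (g q, q.2) :=
      DifferentiableOn.differentiableAt jΘ ((isOpen_Cone Y c'').mem_nhds m1)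
    have a2 : DifferentiableAt ℂ (fun q : ℂ × ℂ => (g q, q.2)) q :=
      (hg q).prodMk differentiableAt_snd
    have a3 : DifferentiableAt ℂ (fun q : ℂ × ℂ => Θ (g q) q.2) q :=
      DifferentiableAt.comp q (f := fun q : ℂ × ℂ => (g q, q.2)) a1 a2
    have a4 : DifferentiableAt ℂ Φ' (Θ (g q) q.2) :=
      hS.dΦ.differentiableAt ((isOpen_Str Y).mem_nhds m2)
    exact (DifferentiableAt.comp q (f := fun q : ℂ × ℂ => Θ (g q) q.2) a4 a3).differentiableWithinAt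
  have j0 : DifferentiableOn ℂ (fun q : ℂ × ℂ => Φ' (Θ q.1 q.2)) (Cone Y c₃) :=
    jΦΘ (fun q => q.1) differentiable_fst (fun q => hp0 q.1 q.2)
  have jm : DifferentiableOn ℂ (fun q : ℂ × ℂ => Φ' (Θ (q.1 - q.2) q.2)) (Cone Y c₃) :=
    jΦΘ (fun q => q.1 - q.2) (differentiable_fst.sub differentiable_snd) (fun q => hpm q.1 q.2)
  have jp : DifferentiableOn ℂ (fun q : ℂ × ℂ => Φ' (Θ (q.1 + q.2) q.2)) (Cone Y c₃) :=
    jΦΘ (fun q => q.1 + q.2) (differentiable_fst.add differentiable_snd) (fun q => hpp q.1 q.2)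
  have jm0 : DifferentiableOn ℂ (fun q : ℂ × ℂ =>
      (Φ' (Θ (q.1 - q.2) q.2) + Φ' (Θ q.1 q.2)) / 2) (Cone Y c₃) := by
    simp only [div_eq_mul_inv]
    exact DifferentiableOn.mul_const (DifferentiableOn.add jm j0) _
  have j0p : DifferentiableOn ℂ (fun q : ℂ × ℂ =>
      (Φ' (Θ q.1 q.2) + Φ' (Θ (q.1 + q.2) q.2)) / 2) (Cone Y c₃) := by
    simp only [div_eq_mul_inv]
    exact DifferentiableOn.mul_const (DifferentiableOn.add j0 jp) _
  have jE : DifferentiableOn ℂ (fun q : ℂ × ℂ => E q.1 q.2) (Cone Y c₃) := by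
    have hK := Kc_differentiable dH
    have e1 : DifferentiableOn ℂ (fun q : ℂ × ℂ =>
        Kc H (Φ' (Θ q.1 q.2)) ((Φ' (Θ (q.1 - q.2) q.2) + Φ' (Θ q.1 q.2)) / 2)) (Cone Y c₃) := by
      have := hK.comp_differentiableOn (f := fun q : ℂ × ℂ =>
        (Φ' (Θ q.1 q.2), (Φ' (Θ (q.1 - q.2) q.2) + Φ' (Θ q.1 q.2)) / 2))
        (DifferentiableOn.prodMk j0 jm0)
      exact this
    have e2 : DifferentiableOn ℂ (fun q : ℂ × ℂ =>
        Kc H (Φ' (Θ q.1 q.2)) ((Φ' (Θ q.1 q.2) + Φ' (Θ (q.1 + q.2) q.2)) / 2)) (Cone Y c₃) := by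
      have := hK.comp_differentiableOn (f := fun q : ℂ × ℂ =>
        (Φ' (Θ q.1 q.2), (Φ' (Θ q.1 q.2) + Φ' (Θ (q.1 + q.2) q.2)) / 2))
        (DifferentiableOn.prodMk j0 j0p)
      exact this
    exact e1.sub e2
  -- near the origin
  have hρ'0 := hG.hρ
  obtain ⟨r₂, e₂, hr₂, he₂, hr₂r, he₂e, hsm⟩ := leaf_small F
    (ε := min (min ρ' (min ρ Y)) κ) (lt_min (lt_min hρ'0 (lt_min T.ρ0 hY)) T.κ0)
  have hzero : ∀ᶠ q : ℂ × ℂ in 𝓝 (0, 0), E q.1 q.2 = 0 := by
    have o1 : {q : ℂ × ℂ | |q.1.im| + ‖q.2‖ < min (min r₂ e₂) ε''} ∈ 𝓝 ((0, 0) : ℂ × ℂ) := by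
      have ho : IsOpen {q : ℂ × ℂ | |q.1.im| + ‖q.2‖ < min (min r₂ e₂) ε''} :=
        isOpen_lt (by fun_prop) continuous_const
      refine ho.mem_nhds ?_
      show |((0 : ℂ)).im| + ‖(0 : ℂ)‖ < _
      simp only [zero_im, abs_zero, norm_zero, add_zero]
      exact lt_min (lt_min hr₂ he₂) hε''
    filter_upwards [o1] with q hq
    obtain ⟨t, w⟩ := q
    have hq' : |t.im| + ‖w‖ < min (min r₂ e₂) ε'' := hq
    have q1 : |t.im| + ‖w‖ < r₂ := hq'.trans_le ((min_le_left _ _).trans (min_le_left _ _))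
    have q2 : |t.im| + ‖w‖ < e₂ := hq'.trans_le ((min_le_left _ _).trans (min_le_right _ _))
    have q3 : |t.im| + ‖w‖ < ε'' := hq'.trans_le (min_le_right _ _)
    have wn := norm_nonneg w
    have tn := abs_nonneg t.im
    have wi := abs_im_le_norm w
    have hmem : (t, w) ∈ WW 1 r₂ e₂ := by
      constructor
      · show ‖w‖ < e₂
        linarith
      · show |t.im| + 1 * |w.im| < r₂
        linarith
    obtain ⟨a1, a2, a3, a4, a5, a6, a7⟩ := hsm t w hmem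
    have hΘθ : ∀ p : ℂ, |p.im| ≤ |t.im| + ‖w‖ → Θ p w = θ p w := by
      intro p hp
      simp only [hΘ]
      rw [ef p w (by linarith) (by linarith)]
      ring
    have b1 : Θ t w = θ t w := hΘθ t (by linarith)
    have b2 : Θ (t - w) w = θ (t - w) w := hΘθ _ (by
      rw [sub_im]
      have := abs_sub t.im w.im
      linarith)
    have b3 : Θ (t + w) w = θ (t + w) w := hΘθ _ (by
      rw [add_im]
      have := abs_add_le t.im w.im
      linarith)
    have hle1 : min (min ρ' (min ρ Y)) κ ≤ ρ' := (min_le_left _ _).trans (min_le_left _ _)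
    have hle2 : min (min ρ' (min ρ Y)) κ ≤ min ρ Y := (min_le_left _ _).trans (min_le_right _ _)
    have hΦ' : ∀ z : ℂ, |z.im| < min (min ρ' (min ρ Y)) κ → Φ' z = Φ z := by
      intro z hz
      exact hΦ z (by rw [mem_Str]; linarith)
    have hEL := F.er t w (WW_sub hr₂r he₂e hmem)
    rw [Er, EL_zero_iff T hb (by linarith) (by linarith) (by linarith) (by linarith)] at hEL
    have hKK : ∀ a ψ : ℂ, ψ ∈ Str κ → Kc H a ψ = Kc Hh a ψ := by
      intro a ψ hψ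
      have hev : H =ᶠ[𝓝 ψ] Hh := by
        filter_upwards [(isOpen_Str κ).mem_nhds hψ] with z hz
        exact hHh z hz
      rw [Kc, Kc, hHh ψ hψ, hev.deriv_eq]
    have hmid : ∀ z w : ℂ, |z.im| < min (min ρ' (min ρ Y)) κ →
        |w.im| < min (min ρ' (min ρ Y)) κ → (Φ z + Φ w) / 2 ∈ Str κ := by
      intro z w hz hw
      have hz' : z ∈ Str ρ := by
        rw [mem_Str]
        exact hz.trans_le (hle2.trans (min_le_left _ _))
      have hw' : w ∈ Str ρ := by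
        rw [mem_Str]
        exact hw.trans_le (hle2.trans (min_le_left _ _))
      exact Str_mono (by linarith [T.κ0]) (T.mid_mem hz' hw')
    show E t w = 0
    simp only [hE]
    rw [b1, b2, b3, hΦ' _ a5, hΦ' _ a6, hΦ' _ a7, hKK _ _ (hmid _ _ a5 a6),
      hKK _ _ (hmid _ _ a6 a7), hEL, sub_self]
  have h00 : ((0 : ℂ), (0 : ℂ)) ∈ Cone Y c₃ := by
    show ‖(0 : ℂ)‖ < c₃ * (Y - |(0 : ℂ).im|)
    simp only [norm_zero, zero_im, abs_zero, sub_zero]
    positivity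
  have hEall : ∀ q ∈ Cone Y c₃, E q.1 q.2 = 0 := by
    have hA1 : AnalyticOnNhd ℂ (fun q : ℂ × ℂ => E q.1 q.2) (Cone Y c₃) :=
      Hol.analyticOnNhd_of_differentiableOn (isOpen_Cone Y c₃) jE
    intro q hq
    exact hA1.eqOn_of_preconnected_of_eventuallyEq (analyticOnNhd_const)
      (convex_Cone hc₃0.le).isPreconnected h00 hzero hq
  -- the family on the small cone
  have hFC : FamC Y c₃ K'' Θ := by
    refine ⟨hY, hc₃0, hK'', ?_, ?_⟩
    · exact DifferentiableOn.mono jΘ fun q hq => (hgeo q.1 q.2 hq q.1 (hp0 _ _)).1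
    · intro t w h
      have := bf t w (hgeo t w h t (hp0 _ _)).1
      have e1 : Θ t w - t = f t w := by
        simp only [hΘ]
        ring
      rw [e1]
      exact this
  obtain ⟨c₄, K₄, z, hz⟩ := H133.t6 H Φ' Λ Y C n β ψ₀ c₃ K'' Θ dH hS hcusp hFC
    (fun t w h _ _ _ _ _ => sub_eq_zero.1 (hEall (t, w) h))
  obtain ⟨l₀, q, hq⟩ := H830.W.t7 n c₄ K₄ z hz
  exact t8 n l₀ q hq

end Vale.Agent.P097.H536
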